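import Mathlib

/-!
Fact (5) of the direct ("core-A") proof of the one-dimensional core of statement S0423.
Author: helper53.

For a measurable `S : ℝ → ℝ`, integrable on `(0, ∞)`, satisfying the four-point inequality
`S x * S (y + h) ≤ S (x + h) * S y` (`x ≤ y`, `0 ≤ h`), with
`p = S 0`, `a = ∫_{t>0} S t`, `b = ∫_{t>0} exp (-t) * S t` we prove `p * (a - b) ≤ a * b`.

Proof: `S 0 * S (s + t) ≤ S t * S s` for `s, t ≥ 0`; integrate in `s > 0` and against
`exp (-t) dt`, and use Fubini: `∫_{t>0} exp (-t) ∫_{u>t} S u = ∫_{u>0} S u (1 - exp (-u))`.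
-/

set_option autoImplicit false

namespace Crest.Agent.Helper53.S0423Fact5

open MeasureTheory Set Filter Real Topology

/-- Shift of a half-line integral. -/
lemma setIntegral_Ioi_shift (g : ℝ → ℝ) (t : ℝ) :
    ∫ u in Ioi t, g u = ∫ s in Ioi (0:ℝ), g (s + t) := by
  rw [← integral_indicator measurableSet_Ioi, ← integral_indicator measurableSet_Ioi,
    ← integral_add_right_eq_self (fun u => indicator (Ioi t) g u) t]
  refine integral_congr_ae (Filter.Eventually.of_forall fun s => ?_)
  by_cases hs : s ∈ Ioi (0:ℝ)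
  · have hs' : s + t ∈ Ioi t := by
      have : (0:ℝ) < s := hs
      show t < s + t
      linarith
    simp only [indicator_of_mem hs, indicator_of_mem hs']
  · have hs' : s + t ∉ Ioi t := by
      intro h
      have h1 : t < s + t := h
      exact hs (show (0:ℝ) < s by linarith)
    simp only [indicator_of_notMem hs, indicator_of_notMem hs']

/-- Shift of integrability on a half-line. -/
lemma integrableOn_Ioi_shift (g : ℝ → ℝ) (t : ℝ) (hg : IntegrableOn g (Ioi t)) :
    IntegrableOn (fun s => g (s + t)) (Ioi (0:ℝ)) := by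
  have h1 : Integrable (indicator (Ioi t) g) := hg.integrable_indicator measurableSet_Ioi
  have h2 : Integrable (fun s => indicator (Ioi t) g (s + t)) := h1.comp_add_right t
  rw [← integrable_indicator_iff measurableSet_Ioi]
  refine h2.congr (Filter.Eventually.of_forall fun s => ?_)
  by_cases hs : s ∈ Ioi (0:ℝ)
  · have hs' : s + t ∈ Ioi t := by
      have : (0:ℝ) < s := hs
      show t < s + t
      linarith
    simp only [indicator_of_mem hs, indicator_of_mem hs']
  · have hs' : s + t ∉ Ioi t := by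
      intro h
      have h1 : t < s + t := h
      exact hs (show (0:ℝ) < s by linarith)
    simp only [indicator_of_notMem hs, indicator_of_notMem hs']

/-- `∫_{0<t<u} exp (-t) dt = 1 - exp (-u)` written as an integral over `Ioi 0` of an
indicator. -/
lemma integral_exp_neg_indicator_Iio {u : ℝ} (hu : 0 < u) :
    ∫ t in Ioi (0:ℝ), indicator (Iio u) (fun t => Real.exp (-t)) t = 1 - Real.exp (-u) := by
  have h1 : ∀ t, indicator (Iio u) (fun t => Real.exp (-t)) t
      = Real.exp (-t) - indicator (Ici u) (fun t => Real.exp (-t)) t := by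
    intro t
    by_cases ht : t < u
    · have ht' : t ∉ Ici u := fun h => absurd ht (not_lt.mpr h)
      rw [indicator_of_mem (show t ∈ Iio u from ht), indicator_of_notMem ht']; ring
    · have ht' : t ∈ Ici u := not_lt.mp ht
      rw [indicator_of_notMem (show t ∉ Iio u from ht), indicator_of_mem ht']; ring
  have hI1 : IntegrableOn (fun t : ℝ => Real.exp (-t)) (Ioi 0) := integrableOn_exp_neg_Ioi 0
  have hI2 : IntegrableOn (indicator (Ici u) (fun t : ℝ => Real.exp (-t))) (Ioi 0) :=
    hI1.indicator measurableSet_Ici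
  simp_rw [h1]
  rw [integral_sub hI1 hI2, integral_exp_neg_Ioi_zero, setIntegral_indicator measurableSet_Ici]
  have hset : Ioi (0:ℝ) ∩ Ici u = Ici u := by
    ext x
    simp only [mem_inter_iff, mem_Ioi, mem_Ici]
    constructor
    · exact fun h => h.2
    · exact fun h => ⟨lt_of_lt_of_le hu h, h⟩
  rw [hset, integral_Ici_eq_integral_Ioi, integral_exp_neg_Ioi]

section main

variable (S : ℝ → ℝ)

/-- The Fubini kernel `exp (-t) * S u * 1_{t < u}`. -/
noncomputable def ker (z : ℝ × ℝ) : ℝ :=
  Real.exp (-z.1) * indicator {z : ℝ × ℝ | z.1 < z.2} (fun z => S z.2) z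

lemma ker_measurable (hmeas : Measurable S) : Measurable (ker S) := by
  unfold ker
  refine Measurable.mul (by fun_prop) ?_
  exact (hmeas.comp measurable_snd).indicator (measurableSet_lt measurable_fst measurable_snd)

lemma exp_mul_integrableOn (hint : IntegrableOn S (Ioi 0)) :
    IntegrableOn (fun t => Real.exp (-t) * S t) (Ioi 0) := by
  refine Integrable.bdd_mul (c := 1) hint ?_ ?_
  · exact (by fun_prop : Measurable fun t : ℝ => Real.exp (-t)).aestronglyMeasurable
  · refine (ae_restrict_iff' measurableSet_Ioi).mpr (Filter.Eventually.of_forall fun t ht => ?_)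
    rw [Real.norm_eq_abs, abs_of_pos (Real.exp_pos _)]
    have ht' : (0:ℝ) < t := ht
    calc Real.exp (-t) ≤ Real.exp 0 := Real.exp_le_exp.mpr (by linarith)
      _ = 1 := Real.exp_zero

lemma ker_integrable (hmeas : Measurable S) (hint : IntegrableOn S (Ioi 0)) :
    Integrable (ker S)
      (((volume : Measure ℝ).restrict (Ioi 0)).prod ((volume : Measure ℝ).restrict (Ioi 0))) := by
  have h1 : Integrable (fun z : ℝ × ℝ => Real.exp (-z.1) * S z.2)
      (((volume : Measure ℝ).restrict (Ioi 0)).prod ((volume : Measure ℝ).restrict (Ioi 0))) :=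
    Integrable.mul_prod (integrableOn_exp_neg_Ioi 0) hint
  refine h1.mono (ker_measurable S hmeas).aestronglyMeasurable
    (Filter.Eventually.of_forall fun z => ?_)
  unfold ker
  by_cases hz : z ∈ {z : ℝ × ℝ | z.1 < z.2}
  · rw [indicator_of_mem hz]
  · rw [indicator_of_notMem hz, mul_zero, norm_zero]
    exact norm_nonneg _

lemma ker_inner_left {t : ℝ} (ht : 0 < t) :
    ∫ u in Ioi (0:ℝ), ker S (t, u) = Real.exp (-t) * ∫ u in Ioi t, S u := by
  have h1 : ∀ u, ker S (t, u) = Real.exp (-t) * indicator (Ioi t) S u := by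
    intro u
    unfold ker
    by_cases hu : t < u
    · rw [indicator_of_mem (show (t, u) ∈ {z : ℝ × ℝ | z.1 < z.2} from hu),
        indicator_of_mem (show u ∈ Ioi t from hu)]
    · rw [indicator_of_notMem (show (t, u) ∉ {z : ℝ × ℝ | z.1 < z.2} from hu),
        indicator_of_notMem (show u ∉ Ioi t from hu)]
  simp_rw [h1]
  rw [integral_const_mul, setIntegral_indicator measurableSet_Ioi]
  have hset : Ioi (0:ℝ) ∩ Ioi t = Ioi t := by
    ext x
    simp only [mem_inter_iff, mem_Ioi]
    constructor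
    · exact fun h => h.2
    · exact fun h => ⟨lt_trans ht h, h⟩
  rw [hset]

lemma ker_inner_right {u : ℝ} (hu : 0 < u) :
    ∫ t in Ioi (0:ℝ), ker S (t, u) = S u - Real.exp (-u) * S u := by
  have h1 : ∀ t, ker S (t, u) = S u * indicator (Iio u) (fun t => Real.exp (-t)) t := by
    intro t
    unfold ker
    by_cases ht : t < u
    · rw [indicator_of_mem (show (t, u) ∈ {z : ℝ × ℝ | z.1 < z.2} from ht),
        indicator_of_mem (show t ∈ Iio u from ht)]
      ring
    · rw [indicator_of_notMem (show (t, u) ∉ {z : ℝ × ℝ | z.1 < z.2} from ht),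
        indicator_of_notMem (show t ∉ Iio u from ht)]
      ring
  simp_rw [h1]
  rw [integral_const_mul, integral_exp_neg_indicator_Iio hu]
  ring

/-- **Fubini identity**: `∫_{t>0} exp (-t) ∫_{u>t} S u = ∫_{u>0} S u - ∫_{u>0} exp (-u) S u`. -/
theorem integral_exp_mul_tail (hmeas : Measurable S) (hint : IntegrableOn S (Ioi 0)) :
    ∫ t in Ioi (0:ℝ), Real.exp (-t) * (∫ u in Ioi t, S u)
      = (∫ t in Ioi (0:ℝ), S t) - ∫ t in Ioi (0:ℝ), Real.exp (-t) * S t := by
  have hK := ker_integrable S hmeas hint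
  have e1 := integral_prod (ker S) hK
  have e2 := integral_prod_symm (ker S) hK
  have e3 : ∫ t in Ioi (0:ℝ), (∫ u in Ioi (0:ℝ), ker S (t, u))
      = ∫ t in Ioi (0:ℝ), Real.exp (-t) * (∫ u in Ioi t, S u) :=
    setIntegral_congr_fun measurableSet_Ioi (fun t ht => ker_inner_left S ht)
  have e4 : ∫ u in Ioi (0:ℝ), (∫ t in Ioi (0:ℝ), ker S (t, u))
      = ∫ u in Ioi (0:ℝ), (S u - Real.exp (-u) * S u) :=
    setIntegral_congr_fun measurableSet_Ioi (fun u hu => ker_inner_right S hu)
  rw [← e3, ← e1, e2, e4, integral_sub hint (exp_mul_integrableOn S hint)]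

/-- Integrability of `t ↦ exp (-t) * ∫_{u>t} S u` on `(0, ∞)`. -/
theorem integrableOn_exp_mul_tail (hmeas : Measurable S) (hint : IntegrableOn S (Ioi 0)) :
    IntegrableOn (fun t => Real.exp (-t) * (∫ u in Ioi t, S u)) (Ioi (0:ℝ)) := by
  have hK := ker_integrable S hmeas hint
  have h1 := hK.integral_prod_left
  refine h1.congr ?_
  refine (ae_restrict_iff' measurableSet_Ioi).mpr (Filter.Eventually.of_forall fun t ht => ?_)
  exact ker_inner_left S ht

/-- For `t ≥ 0`: `S 0 * ∫_{u>t} S u ≤ S t * ∫_{s>0} S s`. -/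
theorem tail_le (h4 : ∀ x y h : ℝ, x ≤ y → 0 ≤ h → S x * S (y + h) ≤ S (x + h) * S y)
    (hint : IntegrableOn S (Ioi 0)) {t : ℝ} (ht : 0 ≤ t) :
    S 0 * (∫ u in Ioi t, S u) ≤ S t * ∫ s in Ioi (0:ℝ), S s := by
  have hintt : IntegrableOn S (Ioi t) := hint.mono_set (Ioi_subset_Ioi ht)
  have hshift := integrableOn_Ioi_shift S t hintt
  rw [setIntegral_Ioi_shift S t, ← integral_const_mul, ← integral_const_mul]
  refine setIntegral_mono_on (hshift.const_mul _) (hint.const_mul _) measurableSet_Ioi ?_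
  intro s hs
  have hs' : (0:ℝ) ≤ s := le_of_lt hs
  have := h4 0 s t hs' ht
  rwa [zero_add] at this

/-- **Fact (5)**: `p * (a - b) ≤ a * b`. -/
theorem fact5 (hmeas : Measurable S)
    (h4 : ∀ x y h : ℝ, x ≤ y → 0 ≤ h → S x * S (y + h) ≤ S (x + h) * S y)
    (hint : IntegrableOn S (Ioi 0)) :
    S 0 * ((∫ t in Ioi (0:ℝ), S t) - ∫ t in Ioi (0:ℝ), Real.exp (-t) * S t)
      ≤ (∫ t in Ioi (0:ℝ), S t) * ∫ t in Ioi (0:ℝ), Real.exp (-t) * S t := by
  rw [← integral_exp_mul_tail S hmeas hint, ← integral_const_mul, ← integral_const_mul]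
  refine setIntegral_mono_on ((integrableOn_exp_mul_tail S hmeas hint).const_mul _)
    ((exp_mul_integrableOn S hint).const_mul _) measurableSet_Ioi ?_
  intro t ht
  have h := tail_le S h4 hint (le_of_lt ht)
  have he : 0 ≤ Real.exp (-t) := (Real.exp_pos _).le
  calc S 0 * (Real.exp (-t) * ∫ u in Ioi t, S u)
      = Real.exp (-t) * (S 0 * ∫ u in Ioi t, S u) := by ring
    _ ≤ Real.exp (-t) * (S t * ∫ s in Ioi (0:ℝ), S s) := mul_le_mul_of_nonneg_left h he
    _ = (∫ s in Ioi (0:ℝ), S s) * (Real.exp (-t) * S t) := by ring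

end main

end Crest.Agent.Helper53.S0423Fact5
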