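import Mathlib
import Crest.Prelude.Def_TruncExpWeight
import Crest.Agent.Helper19.Orthant

/-!
Part 2 of statement S0423 (the supremum is approached), self-contained.
Author: helper53.  Route: `N = n + 1`, `a = (-2/n, …, -2/n, 2)`; the orthant integral is the
iterate `Kiter` of helper19's one-dimensional operators; the innermost operator `K 2` applied to
`truncExpWeight` is bounded below by `w ↦ 1 - (4/9) exp (w/2)`, and each outer `K (-2/n)` maps
`1 - C exp (w/2)` to `1 - C (1 + 1/n)⁻¹ exp (w/2)`.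
-/

set_option autoImplicit false

namespace Crest.Agent.Helper53.S0423Part2

open MeasureTheory Set Filter Real Topology
open Crest.AlgGeometry
open Crest.Agent.Helper19 (K Kiter Kiter_succ Kiter_zero Kiter_abs_le Kiter_measurable
  orthant_integral_eq_Kiter)

lemma tew_nonneg (y : ℝ) : 0 ≤ truncExpWeight y := by
  unfold truncExpWeight
  split_ifs with h
  · exact zero_le_one
  · push Not at h
    positivity

lemma tew_le_one (y : ℝ) : truncExpWeight y ≤ 1 := by
  unfold truncExpWeight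
  split_ifs with h
  · exact le_rfl
  · push Not at h
    have h1 : 1 + y ≤ Real.exp y := by linarith [Real.add_one_le_exp y]
    have h2 : (1 + y) * Real.exp (-y) ≤ Real.exp y * Real.exp (-y) :=
      mul_le_mul_of_nonneg_right h1 (Real.exp_pos _).le
    rwa [← Real.exp_add, add_neg_cancel, Real.exp_zero] at h2

lemma tew_abs_le_one (y : ℝ) : |truncExpWeight y| ≤ 1 := by
  rw [abs_of_nonneg (tew_nonneg y)]
  exact tew_le_one y

lemma tew_measurable : Measurable truncExpWeight := by
  unfold truncExpWeight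
  exact Measurable.ite measurableSet_Iic measurable_const (by fun_prop)

lemma tew_of_pos {y : ℝ} (h : 0 < y) : truncExpWeight y = (1 + y) * Real.exp (-y) := by
  unfold truncExpWeight
  rw [if_neg (not_le.mpr h)]

lemma tew_of_nonpos {y : ℝ} (h : y ≤ 0) : truncExpWeight y = 1 := by
  unfold truncExpWeight
  rw [if_pos h]

/-- FTC computation of the tail integral of the smooth branch. -/
lemma integral_branch (a w : ℝ) (h : 0 ≤ 1 + w + 2 * a) :
    ∫ x in Ioi a, (1 + w + 2 * x) * Real.exp (-(w + 2 * x)) * Real.exp (-x)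
      = Real.exp (-w - 3 * a) * ((1 + w + 2 * a) / 3 + 2 / 9) := by
  have hderiv : ∀ x ∈ Ici a, HasDerivAt
      (fun x : ℝ => -(Real.exp (-w - 3 * x) * ((1 + w + 2 * x) / 3 + 2 / 9)))
      ((1 + w + 2 * x) * Real.exp (-(w + 2 * x)) * Real.exp (-x)) x := by
    intro x _
    have h1 : HasDerivAt (fun x : ℝ => Real.exp (-w - 3 * x)) (Real.exp (-w - 3 * x) * (-3)) x := by
      have : HasDerivAt (fun x : ℝ => -w - 3 * x) (-3) x := by
        simpa using ((hasDerivAt_id x).const_mul (3:ℝ)).const_sub (-w)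
      exact this.exp
    have h2 : HasDerivAt (fun x : ℝ => (1 + w + 2 * x) / 3 + 2 / 9) (2 / 3) x := by
      have : HasDerivAt (fun x : ℝ => 1 + w + 2 * x) 2 x := by
        simpa using ((hasDerivAt_id x).const_mul (2:ℝ)).const_add (1 + w)
      simpa using (this.div_const 3).add_const (2 / 9 : ℝ)
    have h3 : HasDerivAt
        (fun x : ℝ => -(Real.exp (-w - 3 * x) * ((1 + w + 2 * x) / 3 + 2 / 9)))
        (-(Real.exp (-w - 3 * x) * -3 * ((1 + w + 2 * x) / 3 + 2 / 9)
          + Real.exp (-w - 3 * x) * (2 / 3))) x := (h1.mul h2).neg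
    have e1 : Real.exp (-(w + 2 * x)) * Real.exp (-x) = Real.exp (-w - 3 * x) := by
      rw [← Real.exp_add]; congr 1; ring
    have e2 : (1 + w + 2 * x) * Real.exp (-(w + 2 * x)) * Real.exp (-x)
        = (1 + w + 2 * x) * Real.exp (-w - 3 * x) := by
      rw [mul_assoc, e1]
    refine h3.congr_deriv ?_
    rw [e2]
    ring
  have hpos : ∀ x ∈ Ioi a, 0 ≤ (1 + w + 2 * x) * Real.exp (-(w + 2 * x)) * Real.exp (-x) := by
    intro x hx
    have : 0 ≤ 1 + w + 2 * x := by
      have : a < x := hx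
      linarith
    positivity
  have hlim : Tendsto (fun x : ℝ => -(Real.exp (-w - 3 * x) * ((1 + w + 2 * x) / 3 + 2 / 9)))
      atTop (𝓝 0) := by
    have h0 : Tendsto (fun x : ℝ => Real.exp (-(3 * x))) atTop (𝓝 0) := by
      have := (Real.tendsto_pow_mul_exp_neg_atTop_nhds_zero 0).comp
        (tendsto_id.const_mul_atTop (by norm_num : (0:ℝ) < 3))
      simpa [Function.comp_def] using this
    have h1' : Tendsto (fun x : ℝ => (3 * x) * Real.exp (-(3 * x))) atTop (𝓝 0) := by
      have := (Real.tendsto_pow_mul_exp_neg_atTop_nhds_zero 1).comp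
        (tendsto_id.const_mul_atTop (by norm_num : (0:ℝ) < 3))
      simpa [Function.comp_def] using this
    have h2 := ((h0.const_mul (Real.exp (-w) * ((1 + w) / 3 + 2 / 9))).add
      (h1'.const_mul (Real.exp (-w) * (2 / 9)))).neg
    have h3 : Tendsto (fun x : ℝ => -(Real.exp (-w) * ((1 + w) / 3 + 2 / 9) * Real.exp (-(3 * x))
        + Real.exp (-w) * (2 / 9) * (3 * x * Real.exp (-(3 * x))))) atTop (𝓝 0) := by
      simpa using h2
    refine h3.congr (fun x => ?_)
    have e : Real.exp (-w - 3 * x) = Real.exp (-w) * Real.exp (-(3 * x)) := by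
      rw [← Real.exp_add]; congr 1
    rw [e]
    ring
  rw [integral_Ioi_of_hasDerivAt_of_nonneg' hderiv hpos hlim]
  ring

lemma integrable_tew_mul (w b c : ℝ) :
    IntegrableOn (fun x : ℝ => truncExpWeight (w + b * x) * Real.exp (-x)) (Ioi c) := by
  have h1 : IntegrableOn (fun x : ℝ => Real.exp (-x)) (Ioi c) := integrableOn_exp_neg_Ioi c
  refine Integrable.bdd_mul (c := 1) h1 ?_ ?_
  · exact (tew_measurable.comp (by fun_prop)).aestronglyMeasurable
  · exact Filter.Eventually.of_forall fun x => by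
      rw [Real.norm_eq_abs]; exact tew_abs_le_one _

/-- The innermost step: `E g(w + 2X) ≥ 1 - (4/9) e^{w/2}`. -/
lemma K2_lower (w : ℝ) : 1 - 4 / 9 * Real.exp (w / 2) ≤ K 2 truncExpWeight w := by
  unfold K
  set m : ℝ := -w / 2 with hm
  set f : ℝ → ℝ := fun x => Real.exp (-x) - truncExpWeight (w + 2 * x) * Real.exp (-x) with hf
  have hf_nonneg : ∀ x, 0 ≤ f x := by
    intro x
    have h1 := tew_le_one (w + 2 * x)
    have h2 := (Real.exp_pos (-x)).le
    have : truncExpWeight (w + 2 * x) * Real.exp (-x) ≤ 1 * Real.exp (-x) :=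
      mul_le_mul_of_nonneg_right h1 h2
    simp only [hf]; linarith
  have hf_zero : ∀ x, x ≤ m → f x = 0 := by
    intro x hx
    have : w + 2 * x ≤ 0 := by rw [hm] at hx; linarith
    simp only [hf]; rw [tew_of_nonpos this]; ring
  have hf_int : ∀ c : ℝ, IntegrableOn f (Ioi c) := fun c =>
    (integrableOn_exp_neg_Ioi c).sub (integrable_tew_mul w 2 c)
  have h_eq : ∫ x in Ioi (0:ℝ), truncExpWeight (w + 2 * x) * Real.exp (-x)
      = 1 - ∫ x in Ioi (0:ℝ), f x := by
    have : ∫ x in Ioi (0:ℝ), f x = (∫ x in Ioi (0:ℝ), Real.exp (-x))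
        - ∫ x in Ioi (0:ℝ), truncExpWeight (w + 2 * x) * Real.exp (-x) :=
      integral_sub (integrableOn_exp_neg_Ioi 0) (integrable_tew_mul w 2 0)
    rw [this, integral_exp_neg_Ioi_zero]; ring
  have h_le : ∫ x in Ioi (0:ℝ), f x ≤ ∫ x in Ioi m, f x := by
    rw [← integral_indicator measurableSet_Ioi, ← integral_indicator measurableSet_Ioi]
    refine integral_mono ((hf_int 0).integrable_indicator measurableSet_Ioi)
      ((hf_int m).integrable_indicator measurableSet_Ioi) ?_
    intro x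
    by_cases hx0 : x ∈ Ioi (0:ℝ) <;> by_cases hxm : x ∈ Ioi m
    · rw [Set.indicator_of_mem hx0, Set.indicator_of_mem hxm]
    · rw [Set.indicator_of_mem hx0, Set.indicator_of_notMem hxm]
      exact (hf_zero x (not_lt.mp hxm)).le
    · rw [Set.indicator_of_notMem hx0, Set.indicator_of_mem hxm]
      exact hf_nonneg x
    · rw [Set.indicator_of_notMem hx0, Set.indicator_of_notMem hxm]
  have h_val : ∫ x in Ioi m, f x = 4 / 9 * Real.exp (w / 2) := by
    have hpos : ∀ x ∈ Ioi m, 0 < w + 2 * x := by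
      intro x hx
      have : m < x := hx
      rw [hm] at this; linarith
    have hcongr : ∫ x in Ioi m, f x = ∫ x in Ioi m, (Real.exp (-x)
        - (1 + w + 2 * x) * Real.exp (-(w + 2 * x)) * Real.exp (-x)) := by
      refine setIntegral_congr_fun measurableSet_Ioi (fun x hx => ?_)
      simp only [hf]; rw [tew_of_pos (hpos x hx), ← add_assoc]
    have hint : IntegrableOn
        (fun x : ℝ => (1 + w + 2 * x) * Real.exp (-(w + 2 * x)) * Real.exp (-x)) (Ioi m) := by
      refine (integrable_tew_mul w 2 m).congr_fun (fun x hx => ?_) measurableSet_Ioi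
      simp only; rw [tew_of_pos (hpos x hx), ← add_assoc]
    rw [hcongr, integral_sub (integrableOn_exp_neg_Ioi m) hint, integral_exp_neg_Ioi,
      integral_branch m w (by rw [hm]; linarith)]
    have e1 : -w - 3 * m = w / 2 := by rw [hm]; ring
    have e2 : -m = w / 2 := by rw [hm]; ring
    have e3 : (1 + w + 2 * m) = 1 := by rw [hm]; ring
    rw [e1, e2, e3]; ring
  rw [h_eq]; linarith

lemma affexp_rewrite (b C y s : ℝ) :
    (1 - C * Real.exp ((y + b * s) / 2)) * Real.exp (-s)
      = Real.exp (-s) - C * Real.exp (y / 2) * Real.exp (-(1 - b / 2) * s) := by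
  have : Real.exp ((y + b * s) / 2) * Real.exp (-s)
      = Real.exp (y / 2) * Real.exp (-(1 - b / 2) * s) := by
    rw [← Real.exp_add, ← Real.exp_add]; congr 1; ring
  calc (1 - C * Real.exp ((y + b * s) / 2)) * Real.exp (-s)
      = Real.exp (-s) - C * (Real.exp ((y + b * s) / 2) * Real.exp (-s)) := by ring
    _ = _ := by rw [this]; ring

lemma affexp_integrable (b C y : ℝ) (hb : b < 2) :
    IntegrableOn (fun s : ℝ => (1 - C * Real.exp ((y + b * s) / 2)) * Real.exp (-s)) (Ioi 0) := by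
  have hneg : -(1 - b / 2) < 0 := by linarith
  have h := (integrableOn_exp_neg_Ioi 0).sub
    ((integrableOn_exp_mul_Ioi hneg 0).const_mul (C * Real.exp (y / 2)))
  refine h.congr_fun (fun s _ => ?_) measurableSet_Ioi
  simp only [Pi.sub_apply]
  rw [affexp_rewrite]

/-- `K b` maps `1 - C e^{w/2}` to `1 - C (1 - b/2)⁻¹ e^{w/2}` for `b < 2`. -/
lemma K_affexp (b C y : ℝ) (hb : b < 2) :
    K b (fun w => 1 - C * Real.exp (w / 2)) y = 1 - C * (1 - b / 2)⁻¹ * Real.exp (y / 2) := by
  have hneg : -(1 - b / 2) < 0 := by linarith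
  have hne : (1 - b / 2) ≠ 0 := by intro h0; rw [h0] at hneg; simp at hneg
  unfold K
  simp_rw [affexp_rewrite]
  rw [integral_sub (integrableOn_exp_neg_Ioi 0) ((integrableOn_exp_mul_Ioi hneg 0).const_mul _),
    integral_exp_neg_Ioi_zero, integral_const_mul, integral_exp_mul_Ioi hneg 0]
  simp only [mul_zero, Real.exp_zero]
  field_simp

lemma K_mono_of_le (b : ℝ) (f g : ℝ → ℝ) (y : ℝ)
    (hf : IntegrableOn (fun s => f (y + b * s) * Real.exp (-s)) (Ioi 0))
    (hg : IntegrableOn (fun s => g (y + b * s) * Real.exp (-s)) (Ioi 0))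
    (hfg : ∀ w, f w ≤ g w) : K b f y ≤ K b g y := by
  unfold K
  refine integral_mono hf hg (fun s => ?_)
  exact mul_le_mul_of_nonneg_right (hfg _) (Real.exp_pos _).le

/-- The coefficient vector `(b, …, b, 2)` of length `m + 1`. -/
noncomputable def coef (m : ℕ) (b : ℝ) : Fin (m + 1) → ℝ :=
  Fin.snoc (α := fun _ => ℝ) (fun _ : Fin m => b) 2

lemma coef_zero_zero (b : ℝ) : coef 0 b 0 = 2 := by
  have : (0 : Fin (0 + 1)) = Fin.last 0 := rfl
  unfold coef
  rw [this, Fin.snoc_last]

lemma coef_succ_zero (m : ℕ) (b : ℝ) : coef (m + 1) b 0 = b := by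
  have : (0 : Fin (m + 1 + 1)) = Fin.castSucc (0 : Fin (m + 1)) := rfl
  unfold coef
  rw [this, Fin.snoc_castSucc]

lemma coef_tail (m : ℕ) (b : ℝ) : (fun i : Fin (m + 1) => coef (m + 1) b i.succ) = coef m b := by
  funext i
  unfold coef
  refine Fin.lastCases ?_ (fun j => ?_) i
  · rw [Fin.succ_last, Fin.snoc_last, Fin.snoc_last]
  · rw [Fin.succ_castSucc, Fin.snoc_castSucc, Fin.snoc_castSucc]

lemma coef_sum (m : ℕ) (b : ℝ) : ∑ i, coef m b i = m * b + 2 := by
  unfold coef
  rw [Fin.sum_univ_castSucc]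
  simp [Fin.snoc_castSucc, Fin.snoc_last]

lemma Kiter_coef_lower (b : ℝ) (hb : b < 2) (m : ℕ) (y : ℝ) :
    1 - 4 / 9 * ((1 - b / 2)⁻¹) ^ m * Real.exp (y / 2)
      ≤ Kiter (m + 1) (coef m b) truncExpWeight y := by
  induction m generalizing y with
  | zero =>
    rw [Kiter_succ, coef_zero_zero]
    simp only [Kiter_zero, pow_zero, mul_one]
    exact K2_lower y
  | succ m ih =>
    rw [Kiter_succ, coef_succ_zero, coef_tail]
    have hint : IntegrableOn (fun s : ℝ =>
        Kiter (m + 1) (coef m b) truncExpWeight (y + b * s) * Real.exp (-s)) (Ioi 0) := by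
      have h1 : IntegrableOn (fun x : ℝ => Real.exp (-x)) (Ioi 0) := integrableOn_exp_neg_Ioi 0
      refine Integrable.bdd_mul (c := 1) h1 ?_ ?_
      · exact ((Kiter_measurable _ _ _ tew_measurable).comp (by fun_prop)).aestronglyMeasurable
      · exact Filter.Eventually.of_forall fun x => by
          rw [Real.norm_eq_abs]; exact Kiter_abs_le _ _ _ 1 tew_abs_le_one _
    calc 1 - 4 / 9 * ((1 - b / 2)⁻¹) ^ (m + 1) * Real.exp (y / 2)
        = K b (fun w => 1 - (4 / 9 * ((1 - b / 2)⁻¹) ^ m) * Real.exp (w / 2)) y := by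
          rw [K_affexp b _ y hb]; ring
      _ ≤ K b (Kiter (m + 1) (coef m b) truncExpWeight) y :=
          K_mono_of_le b _ _ y (affexp_integrable b _ y hb) hint (fun w => ih w)

/-- **Part 2 of S0423**: the supremum is approached. -/
theorem sup_approached : ∀ ε : ℝ, 0 < ε → ∃ (N : ℕ) (a : Fin N → ℝ), 1 ≤ N ∧ ∑ i, a i = 0 ∧
      3 / 4 * Real.exp (4 / 3) - Real.exp 1 / 3 - ε <
        Real.exp (4 / 3) / (4 / 3) *
          ∫ x in Set.pi Set.univ (fun _ : Fin N => Set.Ioi (0 : ℝ)),
            Crest.AlgGeometry.truncExpWeight (4 / 3 + ∑ i, a i * x i) * Real.exp (-∑ i, x i) := by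
  intro ε hε
  have hlim : Tendsto (fun n : ℕ => ((1 + (1:ℝ) / n) ^ n)⁻¹) atTop (𝓝 (Real.exp 1)⁻¹) :=
    (Real.tendsto_one_add_div_pow_exp 1).inv₀ (Real.exp_pos 1).ne'
  have hδ : (Real.exp 1)⁻¹ < (Real.exp 1)⁻¹ + 3 * ε / Real.exp 2 := by
    have : 0 < 3 * ε / Real.exp 2 := by positivity
    linarith
  have hev := (hlim.eventually (eventually_lt_nhds hδ)).and (eventually_ge_atTop 1)
  obtain ⟨n, hn, hn1⟩ := hev.exists
  have hn0 : (0:ℝ) < n := by exact_mod_cast hn1
  refine ⟨n + 1, coef n (-2 / n), by omega, ?_, ?_⟩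
  · rw [coef_sum]; field_simp; ring
  · rw [orthant_integral_eq_Kiter (n + 1) _ truncExpWeight tew_measurable 1 tew_abs_le_one (4 / 3)]
    have hb : (-2 / (n:ℝ)) < 2 := by
      have : -2 / (n:ℝ) < 0 := div_neg_of_neg_of_pos (by norm_num) hn0
      linarith
    have hK := Kiter_coef_lower (-2 / n) hb n (4 / 3)
    have hr : ((1 - (-2 / (n:ℝ)) / 2)⁻¹) ^ n = ((1 + (1:ℝ) / n) ^ n)⁻¹ := by
      rw [inv_pow]; congr 2; ring
    rw [hr] at hK
    have he1 : Real.exp (4 / 3) * Real.exp (4 / 3 / 2) = Real.exp 2 := by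
      rw [← Real.exp_add]; norm_num
    have he2 : Real.exp 2 = Real.exp 1 * Real.exp 1 := by
      rw [← Real.exp_add]; norm_num
    set r : ℝ := ((1 + (1:ℝ) / n) ^ n)⁻¹ with hrdef
    have h1 : Real.exp (4 / 3) / (4 / 3) * (1 - 4 / 9 * r * Real.exp (4 / 3 / 2))
        ≤ Real.exp (4 / 3) / (4 / 3) * Kiter (n + 1) (coef n (-2 / n)) truncExpWeight (4 / 3) :=
      mul_le_mul_of_nonneg_left hK (by positivity)
    have h2 : Real.exp (4 / 3) / (4 / 3) * (1 - 4 / 9 * r * Real.exp (4 / 3 / 2))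
        = 3 / 4 * Real.exp (4 / 3) - 1 / 3 * Real.exp 2 * r := by
      rw [← he1]; ring
    have h3 : 1 / 3 * Real.exp 2 * r < Real.exp 1 / 3 + ε := by
      have h4 : Real.exp 2 * r < Real.exp 2 * ((Real.exp 1)⁻¹ + 3 * ε / Real.exp 2) :=
        mul_lt_mul_of_pos_left hn (Real.exp_pos 2)
      have e3 : Real.exp 2 * ((Real.exp 1)⁻¹ + 3 * ε / Real.exp 2) = Real.exp 1 + 3 * ε := by
        rw [he2]; field_simp
      linarith
    linarith

end Crest.Agent.Helper53.S0423Part2
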